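import Vale.Agent.P371.Lower

open Vale.Agent.P371

theorem Vale.Agent.Results.P371.Sharp.result (γ : ℝ) (h1 : 1 / 2 < γ) (h2 : γ < 3 / 2) (m : ℕ)
    (hm : 1 ≤ m) : LT γ m = ENNReal.ofReal (Lone γ) :=
  LT_eq h1 h2 hm
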