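import Vale.Agent.P371.Upper

open Vale.Agent.P371

theorem Vale.Agent.Results.P371.Upper.result (γ : ℝ) (h1 : 1 / 2 < γ) (h2 : γ < 3 / 2) (m : ℕ) :
    LT γ m ≤ ENNReal.ofReal (Lone γ) :=
  LT_le h1 h2 m
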